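import Vale.Agent.Lib.P162.Reach

namespace Vale.Agent.Lib.P162

open Finset

/-- The number of cards that start at an even position and end in the top half. -/
def evenTop (m : ℕ) (g : Equiv.Perm (Fin (2 * m))) : ℕ :=
  (univ.filter fun x : Fin (2 * m) => x.val % 2 = 0 ∧ (g x).val < m).card

/-- The number of even positions in the top half. -/
def evenTopId (m : ℕ) : ℕ :=
  (univ.filter fun y : Fin (2 * m) => y.val < m ∧ y.val % 2 = 0).card

/-- If `m = 2^s`, every product of `2s` Thorp shuffles sends exactly as many even-position
cards to the top half as there are even positions in the top half. -/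
theorem reach_evenTop (m s : ℕ) (hms : 2 ^ s = m) (g : Equiv.Perm (Fin (2 * m)))
    (hg : g ∈ reach m (s + s)) : evenTop m g = evenTopId m := by
  obtain ⟨a, ha, b, hb, rfl⟩ := reach_add m s s g hg
  unfold evenTop evenTopId
  have h1 : ∀ x : Fin (2 * m), (x.val % 2 = 0 ∧ ((a * b) x).val < m) ↔
      ((b x).val < m ∧ (b x).val % 2 = 0) := by
    intro x
    rw [Equiv.Perm.mul_apply, reach_half_iff m s hms a ha (b x),
      ← reach_half_iff m s hms b hb x]
  rw [Finset.filter_congr (fun x _ => h1 x)]
  apply Finset.card_bij (fun x _ => b x)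
  · intro x hx
    rw [mem_filter] at hx ⊢
    exact ⟨mem_univ _, hx.2⟩
  · intro x _ x' _ h
    exact b.injective h
  · intro y hy
    rw [mem_filter] at hy
    refine ⟨b.symm y, ?_, by simp⟩
    rw [mem_filter]
    refine ⟨mem_univ _, ?_⟩
    simpa using hy.2

section count
variable (m : ℕ)

/-- Swapping the cards at positions `0` and `1` changes `evenTop` in a controlled way. -/
theorem evenTop_swap (hm : 2 ≤ m) (g : Equiv.Perm (Fin (2 * m))) :
    evenTop m (g * Equiv.swap (⟨0, by omega⟩ : Fin (2 * m)) ⟨1, by omega⟩)
        + (if (g ⟨0, by omega⟩).val < m then 1 else 0)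
      = evenTop m g + (if (g ⟨1, by omega⟩).val < m then 1 else 0) := by
  set zero : Fin (2 * m) := ⟨0, by omega⟩ with hzero
  set one : Fin (2 * m) := ⟨1, by omega⟩ with hone
  have h01 : zero ≠ one := by
    intro h
    have := congrArg Fin.val h
    simp [hzero, hone] at this
  have huniv : (univ : Finset (Fin (2 * m))) = insert zero (univ.erase zero) :=
    (Finset.insert_erase (mem_univ zero)).symm
  have hnot : zero ∉ (univ.erase zero : Finset (Fin (2 * m))) := Finset.notMem_erase _ _
  -- decomposition for g
  have e1 : evenTop m g = (if (g zero).val < m then 1 else 0)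
      + ((univ.erase zero).filter fun x : Fin (2 * m) => x.val % 2 = 0 ∧ (g x).val < m).card := by
    unfold evenTop
    conv_lhs => rw [huniv]
    rw [Finset.filter_insert]
    by_cases hz : (g zero).val < m
    · have hp : zero.val % 2 = 0 ∧ (g zero).val < m := ⟨by simp [hzero], hz⟩
      rw [if_pos hp, if_pos hz, Finset.card_insert_of_notMem (by
        intro hmem
        exact hnot (Finset.mem_of_mem_filter _ hmem))]
      omega
    · have hp : ¬ (zero.val % 2 = 0 ∧ (g zero).val < m) := fun h => hz h.2
      rw [if_neg hp, if_neg hz]
      omega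
  -- decomposition for g * swap
  have e2 : evenTop m (g * Equiv.swap zero one) = (if (g one).val < m then 1 else 0)
      + ((univ.erase zero).filter fun x : Fin (2 * m) => x.val % 2 = 0 ∧ (g x).val < m).card := by
    unfold evenTop
    conv_lhs => rw [huniv]
    rw [Finset.filter_insert]
    have hsw : (g * Equiv.swap zero one) zero = g one := by
      rw [Equiv.Perm.mul_apply, Equiv.swap_apply_left]
    have hcongr : ((univ.erase zero).filter fun x : Fin (2 * m) =>
          x.val % 2 = 0 ∧ ((g * Equiv.swap zero one) x).val < m)
        = ((univ.erase zero).filter fun x : Fin (2 * m) => x.val % 2 = 0 ∧ (g x).val < m) := by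
      apply Finset.filter_congr
      intro x hx
      have hx0 : x ≠ zero := Finset.ne_of_mem_erase hx
      constructor
      · rintro ⟨hev, hlt⟩
        have hx1 : x ≠ one := by
          intro h
          rw [h] at hev
          simp [hone] at hev
        rw [Equiv.Perm.mul_apply, Equiv.swap_apply_of_ne_of_ne hx0 hx1] at hlt
        exact ⟨hev, hlt⟩
      · rintro ⟨hev, hlt⟩
        have hx1 : x ≠ one := by
          intro h
          rw [h] at hev
          simp [hone] at hev
        rw [Equiv.Perm.mul_apply, Equiv.swap_apply_of_ne_of_ne hx0 hx1]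
        exact ⟨hev, hlt⟩
    rw [hcongr, hsw]
    by_cases hz : (g one).val < m
    · have hp : zero.val % 2 = 0 ∧ (g one).val < m := ⟨by simp [hzero], hz⟩
      rw [if_pos hp, if_pos hz, Finset.card_insert_of_notMem (by
        intro hmem
        exact hnot (Finset.mem_of_mem_filter _ hmem))]
      omega
    · have hp : ¬ (zero.val % 2 = 0 ∧ (g one).val < m) := fun h => hz h.2
      rw [if_neg hp, if_neg hz]
      omega
  rw [e1, e2]
  omega

end count

end Vale.Agent.Lib.P162
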