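import Vale.Agent.Lib.P162.Defs

namespace Vale.Agent.Lib.P162

open Finset

section conv
variable {G : Type*} [Group G] [Fintype G] [DecidableEq G]

omit [DecidableEq G] in
theorem conv_nonneg {μ ν : G → ℝ} (hμ : ∀ g, 0 ≤ μ g) (hν : ∀ g, 0 ≤ ν g) (g : G) :
    0 ≤ conv μ ν g :=
  Finset.sum_nonneg fun h _ => mul_nonneg (hμ _) (hν _)

omit [DecidableEq G] in
theorem conv_sum (μ ν : G → ℝ) : ∑ g, conv μ ν g = (∑ g, μ g) * (∑ g, ν g) := by
  unfold conv
  rw [Finset.sum_comm, Finset.mul_sum]
  apply Finset.sum_congr rfl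
  intro h _
  rw [← Finset.sum_mul]
  have : ∑ g, μ (g * h⁻¹) = ∑ g, μ g :=
    Fintype.sum_equiv (Equiv.mulRight h⁻¹) _ _ (fun g => rfl)
  rw [this]

theorem conv_support_card (μ ν : G → ℝ) :
    (univ.filter fun g => conv μ ν g ≠ 0).card ≤
      (univ.filter fun g => μ g ≠ 0).card * (univ.filter fun g => ν g ≠ 0).card := by
  have hsub : (univ.filter fun g => conv μ ν g ≠ 0) ⊆
      ((univ.filter fun g => μ g ≠ 0) ×ˢ (univ.filter fun g => ν g ≠ 0)).image
        (fun p : G × G => p.1 * p.2) := by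
    intro g hg
    rw [mem_filter] at hg
    have hne := hg.2
    unfold conv at hne
    obtain ⟨h, _, hh⟩ := Finset.exists_ne_zero_of_sum_ne_zero hne
    rw [mem_image]
    refine ⟨(g * h⁻¹, h), ?_, ?_⟩
    · rw [mem_product, mem_filter, mem_filter]
      exact ⟨⟨mem_univ _, left_ne_zero_of_mul hh⟩, ⟨mem_univ _, right_ne_zero_of_mul hh⟩⟩
    · simp
  calc (univ.filter fun g => conv μ ν g ≠ 0).card
      ≤ (((univ.filter fun g => μ g ≠ 0) ×ˢ (univ.filter fun g => ν g ≠ 0)).image
        (fun p : G × G => p.1 * p.2)).card := card_le_card hsub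
    _ ≤ ((univ.filter fun g => μ g ≠ 0) ×ˢ (univ.filter fun g => ν g ≠ 0)).card := card_image_le
    _ = _ := card_product _ _

theorem convPow_nonneg {μ : G → ℝ} (hμ : ∀ g, 0 ≤ μ g) (t : ℕ) (g : G) : 0 ≤ convPow μ t g := by
  induction t generalizing g with
  | zero =>
    unfold convPow
    split <;> norm_num
  | succ t ih =>
    unfold convPow
    exact conv_nonneg ih hμ g

theorem convPow_sum {μ : G → ℝ} (hμ : ∑ g, μ g = 1) (t : ℕ) : ∑ g, convPow μ t g = 1 := by
  induction t with
  | zero =>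
    unfold convPow
    simp
  | succ t ih =>
    unfold convPow
    rw [conv_sum, ih, hμ, mul_one]

theorem convPow_support_card (μ : G → ℝ) (t : ℕ) :
    (univ.filter fun g => convPow μ t g ≠ 0).card ≤
      (univ.filter fun g => μ g ≠ 0).card ^ t := by
  induction t with
  | zero =>
    unfold convPow
    have : (univ.filter fun g : G => (if g = 1 then (1:ℝ) else 0) ≠ 0) ⊆ {1} := by
      intro g hg
      rw [mem_filter] at hg
      rw [mem_singleton]
      by_contra hne
      exact hg.2 (if_neg hne)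
    calc _ ≤ ({1} : Finset G).card := card_le_card this
      _ = 1 := card_singleton _
      _ = _ := (pow_zero _).symm
  | succ t ih =>
    unfold convPow
    calc _ ≤ (univ.filter fun g => convPow μ t g ≠ 0).card *
          (univ.filter fun g => μ g ≠ 0).card := conv_support_card _ _
      _ ≤ (univ.filter fun g => μ g ≠ 0).card ^ t * (univ.filter fun g => μ g ≠ 0).card :=
          Nat.mul_le_mul_right _ ih
      _ = _ := (pow_succ _ _).symm

omit [Group G] in
/-- A probability vector supported on few points is far from a constant vector. -/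
theorem tvDist_const_ge {μ : G → ℝ} (_hμ : ∀ g, 0 ≤ μ g) (hsum : ∑ g, μ g = 1) (u : ℝ)
    (hu : 0 ≤ u) (hN : (Fintype.card G : ℝ) * u = 1) :
    1 - ((univ.filter fun g => μ g ≠ 0).card : ℝ) * u ≤ tvDist μ (fun _ => u) := by
  unfold tvDist
  set S := univ.filter fun g => μ g ≠ 0 with hS
  have h1 : ∑ g, |μ g - u| = ∑ g ∈ S, |μ g - u| + ∑ g ∈ Sᶜ, |μ g - u| :=
    (Finset.sum_add_sum_compl S _).symm
  have h2 : ∑ g ∈ S, (μ g - u) ≤ ∑ g ∈ S, |μ g - u| :=
    Finset.sum_le_sum fun g _ => le_abs_self _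
  have h3 : ∑ g ∈ Sᶜ, |μ g - u| = (Sᶜ.card : ℝ) * u := by
    rw [← nsmul_eq_mul, ← Finset.sum_const]
    apply Finset.sum_congr rfl
    intro g hg
    rw [mem_compl, hS, mem_filter] at hg
    have : μ g = 0 := by
      by_contra hne
      exact hg ⟨mem_univ _, hne⟩
    rw [this, zero_sub, abs_neg, abs_of_nonneg hu]
  have h4 : ∑ g ∈ S, (μ g - u) = 1 - (S.card : ℝ) * u := by
    rw [Finset.sum_sub_distrib, Finset.sum_const, nsmul_eq_mul]
    congr 1
    rw [← hsum]
    apply Finset.sum_subset (subset_univ _)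
    intro g _ hg
    rw [hS, mem_filter] at hg
    by_contra hne
    exact hg ⟨mem_univ _, hne⟩
  have h5 : (Sᶜ.card : ℝ) = (Fintype.card G : ℝ) - (S.card : ℝ) := by
    rw [Finset.card_compl, Nat.cast_sub (Finset.card_le_univ S)]
  have h6 : (Sᶜ.card : ℝ) * u = 1 - (S.card : ℝ) * u := by
    rw [h5, sub_mul, hN]
  rw [h1, h3, h6]
  linarith

end conv

section thorp

theorem thorpPerm_apply (m : ℕ) (c : Fin m → Bool) (x : Fin (2 * m)) :
    thorpPerm m c x = thorpFun m c x := rfl

theorem thorpPerm_injective (m : ℕ) : Function.Injective (thorpPerm m) := by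
  intro c c' h
  funext j
  have hj := j.isLt
  have hlt : (⟨j.val, by omega⟩ : Fin (2 * m)).val < m := hj
  have e : (thorpPerm m c ⟨j.val, by omega⟩).val = (thorpPerm m c' ⟨j.val, by omega⟩).val := by
    rw [h]
  rw [thorpPerm_apply, thorpPerm_apply, thorpFun_val_lt m c _ hlt,
    thorpFun_val_lt m c' _ hlt] at e
  have e' : (c j).toNat = (c' j).toNat := by
    have : (⟨(⟨j.val, by omega⟩ : Fin (2 * m)).val, hlt⟩ : Fin m) = j := Fin.ext rfl
    rw [this] at e
    omega
  cases h1 : c j <;> cases h2 : c' j <;> rw [h1, h2] at e' <;> simp at e' ⊢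

theorem thorpLaw_nonneg (m : ℕ) (g : Equiv.Perm (Fin (2 * m))) : 0 ≤ thorpLaw m g := by
  unfold thorpLaw
  positivity

theorem thorpLaw_sum (m : ℕ) : ∑ g, thorpLaw m g = 1 := by
  unfold thorpLaw
  rw [← Finset.sum_div, ← Nat.cast_sum]
  have h : ∑ g : Equiv.Perm (Fin (2 * m)),
      (univ.filter fun c : Fin m → Bool => thorpPerm m c = g).card
      = (univ : Finset (Fin m → Bool)).card :=
    (Finset.card_eq_sum_card_fiberwise (f := thorpPerm m) (s := univ) (t := univ)
      (fun c _ => mem_univ _)).symm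
  rw [h, Finset.card_univ]
  simp

theorem thorpLaw_support_card (m : ℕ) :
    (univ.filter fun g => thorpLaw m g ≠ 0).card ≤ 2 ^ m := by
  have hsub : (univ.filter fun g => thorpLaw m g ≠ 0) ⊆
      (univ : Finset (Fin m → Bool)).image (thorpPerm m) := by
    intro g hg
    rw [mem_filter] at hg
    rw [mem_image]
    have hne := hg.2
    unfold thorpLaw at hne
    have hc : (univ.filter fun c : Fin m → Bool => thorpPerm m c = g).card ≠ 0 := by
      intro h0
      apply hne
      rw [h0]
      simp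
    obtain ⟨c, hc'⟩ := Finset.card_pos.mp (Nat.pos_of_ne_zero hc)
    rw [mem_filter] at hc'
    exact ⟨c, mem_univ _, hc'.2⟩
  calc _ ≤ ((univ : Finset (Fin m → Bool)).image (thorpPerm m)).card := card_le_card hsub
    _ ≤ (univ : Finset (Fin m → Bool)).card := card_image_le
    _ = 2 ^ m := by simp

/-- The counting bound: after `t` shuffles the law is supported on at most `2^(m t)`
permutations, so its distance from uniform is at least `1 - 2^(m t) / (2m)!`. -/
theorem tv_counting (m t : ℕ) :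
    1 - (2:ℝ) ^ (m * t) / ((2 * m).factorial : ℝ) ≤
      tvDist (convPow (thorpLaw m) t) (unifLaw m) := by
  have hfact : (0:ℝ) < ((2 * m).factorial : ℝ) := by exact_mod_cast Nat.factorial_pos _
  have hcard : (Fintype.card (Equiv.Perm (Fin (2 * m))) : ℝ) * (1 / ((2 * m).factorial : ℝ))
      = 1 := by
    rw [Fintype.card_perm, Fintype.card_fin]
    field_simp
  have h1 := tvDist_const_ge (μ := convPow (thorpLaw m) t)
    (convPow_nonneg (thorpLaw_nonneg m) t) (convPow_sum (thorpLaw_sum m) t)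
    (1 / ((2 * m).factorial : ℝ)) (by positivity) hcard
  have h2 : ((univ.filter fun g => convPow (thorpLaw m) t g ≠ 0).card : ℝ) ≤ (2:ℝ) ^ (m * t) := by
    have := (convPow_support_card (thorpLaw m) t).trans
      (Nat.pow_le_pow_left (thorpLaw_support_card m) t)
    rw [← pow_mul] at this
    exact_mod_cast this
  have h3 : unifLaw m = fun _ => 1 / ((2 * m).factorial : ℝ) := rfl
  rw [h3]
  refine le_trans ?_ h1
  have : ((univ.filter fun g => convPow (thorpLaw m) t g ≠ 0).card : ℝ) *
      (1 / ((2 * m).factorial : ℝ)) ≤ (2:ℝ) ^ (m * t) / ((2 * m).factorial : ℝ) := by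
    rw [mul_one_div]
    exact div_le_div_of_nonneg_right h2 hfact.le
  linarith

end thorp

end Vale.Agent.Lib.P162
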