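import Vale.Agent.Lib.P162.Basic

namespace Vale.Agent.Lib.P162

open Finset

/-- The key numerical inequality: `4 (2m)^(2m) < 3 (2m)! 8^m` for every `m ≥ 1`. -/
theorem key_ineq (m : ℕ) (hm : 1 ≤ m) :
    4 * (2 * m) ^ (2 * m) < 3 * (2 * m).factorial * 8 ^ m := by
  by_cases h4 : m < 4
  · interval_cases m <;> simp [Nat.factorial]
  · have h4 : 4 ≤ m := Nat.le_of_not_lt h4
    have he : Real.exp 1 < 2.7182818286 := Real.exp_one_lt_d9
    have hepos : 0 < Real.exp 1 := Real.exp_pos 1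
    have ha : Real.exp 1 ^ 2 < 7.39 := by nlinarith
    have ha0 : 0 < Real.exp 1 ^ 2 := by positivity
    -- n^n ≤ n! * e^n
    have h1 := Real.pow_div_factorial_le_exp ((2 * m : ℕ) : ℝ) (by positivity) (2 * m)
    have hfact : (0:ℝ) < ((2 * m).factorial : ℝ) := by exact_mod_cast Nat.factorial_pos _
    rw [div_le_iff₀ hfact] at h1
    have h2 : Real.exp ((2 * m : ℕ) : ℝ) = (Real.exp 1 ^ 2) ^ m := by
      rw [← pow_mul, ← Real.exp_nat_mul]
      simp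
    rw [h2] at h1
    -- (e^2/8)^m < 3/4
    have h3 : (Real.exp 1 ^ 2 / 8) ^ m ≤ (Real.exp 1 ^ 2 / 8) ^ 4 :=
      pow_le_pow_of_le_one (by positivity) (by linarith) h4
    have h5 : (Real.exp 1 ^ 2 / 8) ^ 4 < (7.39 / 8 : ℝ) ^ 4 :=
      pow_lt_pow_left₀ (by linarith) (by positivity) (by norm_num)
    have h6 : (7.39 / 8 : ℝ) ^ 4 < 3 / 4 := by norm_num
    have h7 : (Real.exp 1 ^ 2 / 8) ^ m < 3 / 4 := by linarith
    rw [div_pow, div_lt_iff₀ (by positivity)] at h7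
    have h8 : (4:ℝ) * ((2 * m : ℕ) : ℝ) ^ (2 * m) < 3 * ((2 * m).factorial : ℝ) * 8 ^ m := by
      calc (4:ℝ) * ((2 * m : ℕ) : ℝ) ^ (2 * m)
          ≤ 4 * (Real.exp 1 ^ 2) ^ m * ((2 * m).factorial : ℝ) := by nlinarith
        _ < 3 * ((2 * m).factorial : ℝ) * 8 ^ m := by nlinarith
    exact_mod_cast h8

/-- If `8 * 2^t ≤ (2m)^2` then after `t` Thorp shuffles of `2m` cards the total variation
distance from uniform is still larger than `1/4`. -/
theorem tv_gt_quarter (m t : ℕ) (hm : 1 ≤ m) (h : 8 * 2 ^ t ≤ (2 * m) ^ 2) :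
    1 / 4 < tvDist (convPow (thorpLaw m) t) (unifLaw m) := by
  have hc := tv_counting m t
  have hk := key_ineq m hm
  have hfact : (0:ℝ) < ((2 * m).factorial : ℝ) := by exact_mod_cast Nat.factorial_pos _
  -- 8^m * 2^(m t) ≤ (2m)^(2m)
  have h1 : 8 ^ m * 2 ^ (m * t) ≤ (2 * m) ^ (2 * m) := by
    calc 8 ^ m * 2 ^ (m * t) = (8 * 2 ^ t) ^ m := by
          rw [mul_pow, ← pow_mul, mul_comm t m]
      _ ≤ ((2 * m) ^ 2) ^ m := Nat.pow_le_pow_left h m
      _ = (2 * m) ^ (2 * m) := by rw [← pow_mul]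
  -- hence 4 * 2^(m t) < 3 (2m)!
  have h2 : 4 * 2 ^ (m * t) < 3 * (2 * m).factorial := by
    by_contra hcon
    have hcon : 3 * (2 * m).factorial ≤ 4 * 2 ^ (m * t) := Nat.le_of_not_lt hcon
    have : 3 * (2 * m).factorial * 8 ^ m ≤ 4 * (2 * m) ^ (2 * m) := by
      calc 3 * (2 * m).factorial * 8 ^ m ≤ 4 * 2 ^ (m * t) * 8 ^ m :=
            Nat.mul_le_mul_right _ hcon
        _ = 4 * (8 ^ m * 2 ^ (m * t)) := by ring
        _ ≤ 4 * (2 * m) ^ (2 * m) := Nat.mul_le_mul_left _ h1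
    omega
  have h3 : (4:ℝ) * 2 ^ (m * t) < 3 * ((2 * m).factorial : ℝ) := by exact_mod_cast h2
  have h4 : (2:ℝ) ^ (m * t) / ((2 * m).factorial : ℝ) < 3 / 4 := by
    rw [div_lt_iff₀ hfact]
    linarith
  linarith

end Vale.Agent.Lib.P162
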