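import Mathlib

/-!
# The Thorp shuffle: definitions

Deck of `2 * m` cards, positions `0, 1, ..., 2m-1`.
-/

namespace Vale.Agent.Lib.P162

open Finset

/-- One Thorp shuffle of a deck of `2 * m` cards with coin vector `c`, as a map on positions
`0, ..., 2m-1`: the cards in positions `j` and `m + j` (`j < m`) are placed in positions
`2j` and `2j+1`; if `c j = false` the card from position `j` goes to `2j` and the card from
position `m + j` goes to `2j+1`, and if `c j = true` the order is reversed. -/
def thorpFun (m : ℕ) (c : Fin m → Bool) (x : Fin (2 * m)) : Fin (2 * m) :=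
  if h : x.val < m then
    ⟨2 * x.val + (c ⟨x.val, h⟩).toNat, by
      have h1 := Bool.toNat_lt (c ⟨x.val, h⟩)
      omega⟩
  else
    ⟨2 * (x.val - m) + (!(c ⟨x.val - m, by have h2 := x.isLt; omega⟩)).toNat, by
      have h1 := Bool.toNat_lt (!(c ⟨x.val - m, by have h2 := x.isLt; omega⟩))
      have h2 := x.isLt
      omega⟩

theorem thorpFun_val_lt (m : ℕ) (c : Fin m → Bool) (x : Fin (2 * m)) (h : x.val < m) :
    (thorpFun m c x).val = 2 * x.val + (c ⟨x.val, h⟩).toNat := by
  unfold thorpFun
  rw [dif_pos h]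

theorem thorpFun_val_ge (m : ℕ) (c : Fin m → Bool) (x : Fin (2 * m)) (h : ¬ x.val < m)
    (h' : x.val - m < m) :
    (thorpFun m c x).val = 2 * (x.val - m) + (!(c ⟨x.val - m, h'⟩)).toNat := by
  unfold thorpFun
  rw [dif_neg h]

theorem thorpFun_injective (m : ℕ) (c : Fin m → Bool) : Function.Injective (thorpFun m c) := by
  intro x y hxy
  have hx := x.isLt
  have hy := y.isLt
  have hv : (thorpFun m c x).val = (thorpFun m c y).val := by rw [hxy]
  apply Fin.ext
  by_cases h1 : x.val < m
  · by_cases h2 : y.val < m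
    · rw [thorpFun_val_lt m c x h1, thorpFun_val_lt m c y h2] at hv
      have a1 := Bool.toNat_lt (c ⟨x.val, h1⟩)
      have a2 := Bool.toNat_lt (c ⟨y.val, h2⟩)
      omega
    · have h2' : y.val - m < m := by omega
      rw [thorpFun_val_lt m c x h1, thorpFun_val_ge m c y h2 h2'] at hv
      have a1 := Bool.toNat_lt (c ⟨x.val, h1⟩)
      have a2 := Bool.toNat_lt (!(c ⟨y.val - m, h2'⟩))
      have e : x.val = y.val - m := by omega
      have e2 : (⟨x.val, h1⟩ : Fin m) = ⟨y.val - m, h2'⟩ := Fin.ext e
      rw [e2] at hv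
      cases hc : c ⟨y.val - m, h2'⟩ <;> rw [hc] at hv <;> simp at hv <;> omega
  · by_cases h2 : y.val < m
    · have h1' : x.val - m < m := by omega
      rw [thorpFun_val_ge m c x h1 h1', thorpFun_val_lt m c y h2] at hv
      have a1 := Bool.toNat_lt (c ⟨y.val, h2⟩)
      have a2 := Bool.toNat_lt (!(c ⟨x.val - m, h1'⟩))
      have e : y.val = x.val - m := by omega
      have e2 : (⟨y.val, h2⟩ : Fin m) = ⟨x.val - m, h1'⟩ := Fin.ext e
      rw [e2] at hv
      cases hc : c ⟨x.val - m, h1'⟩ <;> rw [hc] at hv <;> simp at hv <;> omega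
    · have h1' : x.val - m < m := by omega
      have h2' : y.val - m < m := by omega
      rw [thorpFun_val_ge m c x h1 h1', thorpFun_val_ge m c y h2 h2'] at hv
      have a1 := Bool.toNat_lt (!(c ⟨x.val - m, h1'⟩))
      have a2 := Bool.toNat_lt (!(c ⟨y.val - m, h2'⟩))
      omega

theorem thorpFun_bijective (m : ℕ) (c : Fin m → Bool) : Function.Bijective (thorpFun m c) :=
  Finite.injective_iff_bijective.mp (thorpFun_injective m c)

/-- One Thorp shuffle with coin vector `c`, as a permutation of the positions. -/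
noncomputable def thorpPerm (m : ℕ) (c : Fin m → Bool) : Equiv.Perm (Fin (2 * m)) :=
  Equiv.ofBijective (thorpFun m c) (thorpFun_bijective m c)

/-- The law `q_n` (`n = 2m`) of one Thorp shuffle on the symmetric group: the `m` coins are
independent and fair, so `q_n g` is the fraction of coin vectors whose shuffle is `g`. -/
noncomputable def thorpLaw (m : ℕ) (g : Equiv.Perm (Fin (2 * m))) : ℝ :=
  ((univ.filter fun c : Fin m → Bool => thorpPerm m c = g).card : ℝ) / 2 ^ m

/-- Convolution of two real functions on a finite group: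
`(μ * ν) g = ∑ h, μ (g h⁻¹) ν h`, the law of a product of independent elements. -/
noncomputable def conv {G : Type*} [Group G] [Fintype G] (μ ν : G → ℝ) (g : G) : ℝ :=
  ∑ h : G, μ (g * h⁻¹) * ν h

/-- The `t`-fold convolution power `μ^{*t}`; `μ^{*0}` is the point mass at the identity. -/
noncomputable def convPow {G : Type*} [Group G] [Fintype G] [DecidableEq G] (μ : G → ℝ) :
    ℕ → G → ℝ
  | 0 => fun g => if g = 1 then 1 else 0
  | t + 1 => conv (convPow μ t) μ

/-- Total variation distance `(1/2) ∑ g, |μ g - ν g|`. -/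
noncomputable def tvDist {G : Type*} [Fintype G] (μ ν : G → ℝ) : ℝ :=
  (1 / 2) * ∑ g : G, |μ g - ν g|

/-- The uniform law on the symmetric group of the `2m` positions. -/
noncomputable def unifLaw (m : ℕ) (_g : Equiv.Perm (Fin (2 * m))) : ℝ :=
  1 / ((2 * m).factorial : ℝ)

end Vale.Agent.Lib.P162
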