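import Vale.Agent.Lib.P162.Counting

namespace Vale.Agent.Lib.P162

open Finset

/-- `reach m t`: the set of products of `t` Thorp shuffles of `2m` cards. -/
def reach (m : ℕ) : ℕ → Set (Equiv.Perm (Fin (2 * m)))
  | 0 => {1}
  | t + 1 => {g | ∃ a ∈ reach m t, ∃ c : Fin m → Bool, g = a * thorpPerm m c}

theorem thorpLaw_ne_zero {m : ℕ} {h : Equiv.Perm (Fin (2 * m))} (hne : thorpLaw m h ≠ 0) :
    ∃ c : Fin m → Bool, thorpPerm m c = h := by
  unfold thorpLaw at hne
  have hc : (univ.filter fun c : Fin m → Bool => thorpPerm m c = h).card ≠ 0 := by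
    intro h0
    apply hne
    rw [h0]
    simp
  obtain ⟨c, hc'⟩ := Finset.card_pos.mp (Nat.pos_of_ne_zero hc)
  rw [mem_filter] at hc'
  exact ⟨c, hc'.2⟩

/-- The law after `t` shuffles is supported on products of `t` shuffles. -/
theorem support_reach (m : ℕ) : ∀ (t : ℕ) (g : Equiv.Perm (Fin (2 * m))),
    convPow (thorpLaw m) t g ≠ 0 → g ∈ reach m t := by
  intro t
  induction t with
  | zero =>
    intro g hg
    unfold convPow at hg
    unfold reach
    by_contra hne
    exact hg (if_neg hne)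
  | succ t ih =>
    intro g hg
    unfold convPow at hg
    unfold conv at hg
    obtain ⟨h, _, hh⟩ := Finset.exists_ne_zero_of_sum_ne_zero hg
    have h1 := left_ne_zero_of_mul hh
    have h2 := right_ne_zero_of_mul hh
    obtain ⟨c, hc⟩ := thorpLaw_ne_zero h2
    unfold reach
    refine ⟨g * h⁻¹, ih _ h1, c, ?_⟩
    rw [hc]
    simp

theorem reach_add (m s : ℕ) : ∀ (s' : ℕ) (g : Equiv.Perm (Fin (2 * m))),
    g ∈ reach m (s + s') → ∃ a ∈ reach m s, ∃ b ∈ reach m s', g = a * b := by
  intro s'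
  induction s' with
  | zero =>
    intro g hg
    exact ⟨g, hg, 1, rfl, by simp⟩
  | succ s' ih =>
    intro g hg
    have hg' : g ∈ reach m ((s + s') + 1) := hg
    unfold reach at hg'
    obtain ⟨g', hg'mem, c, rfl⟩ := hg'
    obtain ⟨a, ha, b, hb, rfl⟩ := ih g' hg'mem
    refine ⟨a, ha, b * thorpPerm m c, ?_, by rw [mul_assoc]⟩
    show b * thorpPerm m c ∈ reach m (s' + 1)
    unfold reach
    exact ⟨b, hb, c, rfl⟩

/-- One shuffle sends position `y` to `2y + b` modulo `2m`, with `b ∈ {0,1}`. -/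
theorem thorpPerm_modEq (m : ℕ) (c : Fin m → Bool) (y : Fin (2 * m)) :
    ∃ b : ℕ, b < 2 ∧ Nat.ModEq (2 * m) (thorpPerm m c y).val (2 * y.val + b) := by
  have hy := y.isLt
  by_cases h : y.val < m
  · refine ⟨(c ⟨y.val, h⟩).toNat, Bool.toNat_lt _, ?_⟩
    rw [thorpPerm_apply, thorpFun_val_lt m c y h]
  · have h' : y.val - m < m := by omega
    refine ⟨(!(c ⟨y.val - m, h'⟩)).toNat, Bool.toNat_lt _, ?_⟩
    rw [thorpPerm_apply, thorpFun_val_ge m c y h h']
    have e : 2 * y.val + (!(c ⟨y.val - m, h'⟩)).toNat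
        = 2 * (y.val - m) + (!(c ⟨y.val - m, h'⟩)).toNat + 2 * m := by omega
    rw [e]
    exact (Nat.add_modEq_right).symm

/-- After `s` shuffles the card from position `y` is at `2^s y + B` modulo `2m`, `B < 2^s`. -/
theorem reach_modEq (m : ℕ) : ∀ (s : ℕ) (g : Equiv.Perm (Fin (2 * m))), g ∈ reach m s →
    ∀ y : Fin (2 * m), ∃ B : ℕ, B < 2 ^ s ∧ Nat.ModEq (2 * m) (g y).val (2 ^ s * y.val + B) := by
  intro s
  induction s with
  | zero =>
    intro g hg y
    unfold reach at hg
    have hg1 : g = 1 := hg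
    refine ⟨0, by norm_num, ?_⟩
    rw [hg1]
    simp [Nat.ModEq]
  | succ s ih =>
    intro g hg y
    unfold reach at hg
    obtain ⟨a, ha, c, rfl⟩ := hg
    obtain ⟨b, hb, hbm⟩ := thorpPerm_modEq m c y
    obtain ⟨B', hB', hBm⟩ := ih a ha (thorpPerm m c y)
    refine ⟨2 ^ s * b + B', ?_, ?_⟩
    · have : 2 ^ s * b ≤ 2 ^ s * 1 := Nat.mul_le_mul_left _ (by omega)
      rw [pow_succ]
      omega
    · have h1 : Nat.ModEq (2 * m) (2 ^ s * (thorpPerm m c y).val + B')
          (2 ^ s * (2 * y.val + b) + B') :=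
        Nat.ModEq.add_right _ (Nat.ModEq.mul_left _ hbm)
      have h2 : 2 ^ s * (2 * y.val + b) + B' = 2 ^ (s + 1) * y.val + (2 ^ s * b + B') := by
        rw [pow_succ]
        ring
      rw [h2] at h1
      exact hBm.trans h1

/-- If `m = 2^s` (a deck of `2^(s+1)` cards): after `s` shuffles a card is in the top half
exactly when it started at an even position. -/
theorem reach_half_iff (m s : ℕ) (hms : 2 ^ s = m) (a : Equiv.Perm (Fin (2 * m)))
    (ha : a ∈ reach m s) (y : Fin (2 * m)) :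
    (a y).val < m ↔ y.val % 2 = 0 := by
  obtain ⟨B, hB, hmod⟩ := reach_modEq m s a ha y
  rw [hms] at hB hmod
  have hay := (a y).isLt
  have hyr : y.val = 2 * (y.val / 2) + y.val % 2 := (Nat.div_add_mod y.val 2).symm
  have hr : y.val % 2 < 2 := Nat.mod_lt _ (by norm_num)
  have h1 : Nat.ModEq (2 * m) (m * y.val + B) (m * (y.val % 2) + B) := by
    have e : m * y.val + B = m * (y.val % 2) + B + (2 * m) * (y.val / 2) := by
      conv_lhs => rw [hyr]
      ring
    rw [e]
    unfold Nat.ModEq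
    exact Nat.add_mul_mod_self_left _ _ _
  have h2 : Nat.ModEq (2 * m) (a y).val (m * (y.val % 2) + B) := hmod.trans h1
  have hlt : m * (y.val % 2) + B < 2 * m := by
    have : m * (y.val % 2) ≤ m * 1 := Nat.mul_le_mul_left _ (by omega)
    omega
  have h3 : (a y).val = m * (y.val % 2) + B := by
    have := h2
    unfold Nat.ModEq at this
    rwa [Nat.mod_eq_of_lt hay, Nat.mod_eq_of_lt hlt] at this
  constructor
  · intro hlt'
    by_contra hne
    have h4 : y.val % 2 = 1 := by omega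
    rw [h3, h4] at hlt'
    omega
  · intro h0
    rw [h3, h0]
    omega

end Vale.Agent.Lib.P162
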