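import Vale.Agent.Lib.P162.Balance

namespace Vale.Agent.Lib.P162

open Finset

section
variable (m : ℕ)

/-- The mirror map between the two halves of the deck. -/
def mirror (y : Fin (2 * m)) : Fin (2 * m) :=
  if h : y.val < m then ⟨y.val + m, by omega⟩ else ⟨y.val - m, by have := y.isLt; omega⟩

theorem mirror_val_lt (y : Fin (2 * m)) : (mirror m y).val < m ↔ ¬ y.val < m := by
  have hy := y.isLt
  unfold mirror
  split
  · rename_i h
    simp only [h, not_true_eq_false, iff_false, not_lt]
    omega
  · rename_i h
    simp only [h, not_false_eq_true, iff_true]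
    omega

theorem mirror_val_of_lt (y : Fin (2 * m)) (h : y.val < m) : (mirror m y).val = y.val + m := by
  unfold mirror
  rw [dif_pos h]

theorem mirror_val_of_ge (y : Fin (2 * m)) (h : ¬ y.val < m) : (mirror m y).val = y.val - m := by
  unfold mirror
  rw [dif_neg h]

theorem mirror_mirror (y : Fin (2 * m)) : mirror m (mirror m y) = y := by
  have hy := y.isLt
  apply Fin.ext
  by_cases h : y.val < m
  · have h1 := mirror_val_of_lt m y h
    have h2 : ¬ (mirror m y).val < m := by omega
    rw [mirror_val_of_ge m (mirror m y) h2]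
    omega
  · have h1 := mirror_val_of_ge m y h
    have h2 : (mirror m y).val < m := by omega
    rw [mirror_val_of_lt m (mirror m y) h2]
    omega

/-- The involution used to compare the two classes of permutations. -/
noncomputable def flipOne (hm : 2 ≤ m) (g : Equiv.Perm (Fin (2 * m))) : Equiv.Perm (Fin (2 * m)) :=
  Equiv.swap (g ⟨1, by omega⟩) (mirror m (g ⟨1, by omega⟩)) * g

theorem flipOne_one (hm : 2 ≤ m) (g : Equiv.Perm (Fin (2 * m))) :
    flipOne m hm g ⟨1, by omega⟩ = mirror m (g ⟨1, by omega⟩) := by
  unfold flipOne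
  rw [Equiv.Perm.mul_apply, Equiv.swap_apply_left]

theorem flipOne_flipOne (hm : 2 ≤ m) (g : Equiv.Perm (Fin (2 * m))) :
    flipOne m hm (flipOne m hm g) = g := by
  have h1 := flipOne_one m hm g
  have h2 : flipOne m hm (flipOne m hm g)
      = Equiv.swap (flipOne m hm g ⟨1, by omega⟩) (mirror m (flipOne m hm g ⟨1, by omega⟩))
          * flipOne m hm g := rfl
  rw [h2, h1, mirror_mirror]
  unfold flipOne
  rw [← mul_assoc, Equiv.swap_comm, Equiv.swap_mul_self, one_mul]

/-- The permutations for which the cards from positions `0` and `1` end in the same half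
are fewer than half of all permutations. -/
theorem sameHalf_card (hm : 2 ≤ m) :
    2 * (univ.filter fun g : Equiv.Perm (Fin (2 * m)) =>
        ((g ⟨0, by omega⟩).val < m ↔ (g ⟨1, by omega⟩).val < m)).card + 1
      ≤ (2 * m).factorial := by
  set zero : Fin (2 * m) := ⟨0, by omega⟩ with hzero
  set one : Fin (2 * m) := ⟨1, by omega⟩ with hone
  set mid : Fin (2 * m) := ⟨m, by omega⟩ with hmid
  set B : Finset (Equiv.Perm (Fin (2 * m))) :=
    univ.filter fun g => ((g zero).val < m ↔ (g one).val < m) with hB
  have h01 : zero ≠ one := by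
    intro h
    have := congrArg Fin.val h
    simp [hzero, hone] at this
  have h0m : zero ≠ mid := by
    intro h
    have := congrArg Fin.val h
    simp only [hzero, hmid] at this
    omega
  have h1m : one ≠ mid := by
    intro h
    have := congrArg Fin.val h
    simp only [hone, hmid] at this
    omega
  -- the exceptional permutation
  set gs : Equiv.Perm (Fin (2 * m)) := Equiv.swap one mid with hgs
  have hgs0 : gs zero = zero := Equiv.swap_apply_of_ne_of_ne h01 h0m
  have hgs1 : gs one = mid := Equiv.swap_apply_left _ _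
  have hmirmid : mirror m mid = zero := by
    apply Fin.ext
    unfold mirror
    have : ¬ mid.val < m := by simp [hmid]
    rw [dif_neg this]
    simp [hmid, hzero]
  have hgsB : gs ∈ Bᶜ := by
    rw [mem_compl, hB, mem_filter]
    rintro ⟨_, h⟩
    rw [hgs0, hgs1] at h
    have h1 : zero.val < m := by simp only [hzero]; omega
    have h2 : ¬ mid.val < m := by simp [hmid]
    exact h2 (h.mp h1)
  -- flipOne maps B into Bᶜ \ {gs}
  have hmaps : ∀ g ∈ B, flipOne m hm g ∈ Bᶜ.erase gs := by
    intro g hg
    rw [hB, mem_filter] at hg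
    have hgB := hg.2
    have hf1 : flipOne m hm g one = mirror m (g one) := flipOne_one m hm g
    have hne1 : g zero ≠ g one := fun h => h01 (g.injective h)
    have hne2 : g zero ≠ mirror m (g one) := by
      intro h
      have h3 := mirror_val_lt m (g one)
      rw [← h] at h3
      exact (iff_not_self (hgB.symm.trans h3)).elim
    have hf0 : flipOne m hm g zero = g zero := by
      unfold flipOne
      rw [Equiv.Perm.mul_apply]
      exact Equiv.swap_apply_of_ne_of_ne hne1 hne2
    rw [mem_erase]
    constructor
    · intro heq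
      -- then g = flipOne gs, which is not in B
      have hg2 : g = flipOne m hm gs := by
        rw [← heq, flipOne_flipOne]
      have hfg0 : flipOne m hm gs zero = mid := by
        unfold flipOne
        rw [Equiv.Perm.mul_apply, hgs0]
        have : gs ⟨1, by omega⟩ = mid := hgs1
        rw [this, hmirmid, Equiv.swap_apply_right]
      have hfg1 : flipOne m hm gs one = zero := by
        rw [flipOne_one m hm gs]
        have : gs ⟨1, by omega⟩ = mid := hgs1
        rw [this, hmirmid]
      rw [hg2, hfg0, hfg1] at hgB
      have h1 : zero.val < m := by simp only [hzero]; omega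
      have h2 : ¬ mid.val < m := by simp [hmid]
      exact h2 (hgB.mpr h1)
    · rw [mem_compl, hB, mem_filter]
      rintro ⟨_, h⟩
      rw [hf0, hf1] at h
      have h3 := mirror_val_lt m (g one)
      exact (iff_not_self (hgB.symm.trans (h.trans h3))).elim
  have hinj : Set.InjOn (flipOne m hm) (B : Set (Equiv.Perm (Fin (2 * m)))) := by
    intro g _ g' _ h
    have := congrArg (flipOne m hm) h
    rwa [flipOne_flipOne, flipOne_flipOne] at this
  have hcard : B.card ≤ (Bᶜ.erase gs).card := Finset.card_le_card_of_injOn _ hmaps hinj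
  rw [Finset.card_erase_of_mem hgsB] at hcard
  have hpos : 0 < Bᶜ.card := Finset.card_pos.mpr ⟨gs, hgsB⟩
  have htot : B.card + Bᶜ.card = (2 * m).factorial := by
    rw [Finset.card_add_card_compl, Fintype.card_perm, Fintype.card_fin]
  omega

/-- For every `K`, the permutations with `evenTop = K` are fewer than three quarters of all
permutations. -/
theorem evenTop_class_card (hm : 2 ≤ m) (K : ℕ) :
    4 * (univ.filter fun g : Equiv.Perm (Fin (2 * m)) => evenTop m g = K).card
      < 3 * (2 * m).factorial := by
  set zero : Fin (2 * m) := ⟨0, by omega⟩ with hzero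
  set one : Fin (2 * m) := ⟨1, by omega⟩ with hone
  set A : Finset (Equiv.Perm (Fin (2 * m))) := univ.filter fun g => evenTop m g = K with hA
  set B : Finset (Equiv.Perm (Fin (2 * m))) :=
    univ.filter fun g => ((g zero).val < m ↔ (g one).val < m) with hB
  have hBcard : 2 * B.card + 1 ≤ (2 * m).factorial := sameHalf_card m hm
  -- A \ B injects into Aᶜ
  have hmaps : ∀ g ∈ A.filter (fun g => g ∉ B), g * Equiv.swap zero one ∈ Aᶜ := by
    intro g hg
    rw [mem_filter] at hg
    obtain ⟨hgA, hgB⟩ := hg
    rw [hA, mem_filter] at hgA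
    rw [mem_compl, hA, mem_filter]
    rintro ⟨_, hK⟩
    have hsw := evenTop_swap m hm g
    have hsw' : evenTop m (g * Equiv.swap zero one) + (if (g zero).val < m then 1 else 0)
        = evenTop m g + (if (g one).val < m then 1 else 0) := hsw
    rw [hK, hgA.2] at hsw'
    apply hgB
    rw [hB, mem_filter]
    refine ⟨mem_univ _, ?_⟩
    by_cases h0 : (g zero).val < m <;> by_cases h1 : (g one).val < m
    · exact ⟨fun _ => h1, fun _ => h0⟩
    · rw [if_pos h0, if_neg h1] at hsw'
      omega
    · rw [if_neg h0, if_pos h1] at hsw'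
      omega
    · exact ⟨fun h => (h0 h).elim, fun h => (h1 h).elim⟩
  have hinj : Set.InjOn (fun g : Equiv.Perm (Fin (2 * m)) => g * Equiv.swap zero one)
      (A.filter (fun g => g ∉ B) : Set (Equiv.Perm (Fin (2 * m)))) := by
    intro g _ g' _ h
    exact mul_right_cancel h
  have h1 : (A.filter (fun g => g ∉ B)).card ≤ Aᶜ.card :=
    Finset.card_le_card_of_injOn _ hmaps hinj
  have h2 : (A.filter (fun g => g ∈ B)).card ≤ B.card :=
    Finset.card_le_card (fun g hg => (mem_filter.mp hg).2)
  have h3 : (A.filter (fun g => g ∈ B)).card + (A.filter (fun g => g ∉ B)).card = A.card :=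
    Finset.card_filter_add_card_filter_not (fun g => g ∈ B)
  have htot : A.card + Aᶜ.card = (2 * m).factorial := by
    rw [Finset.card_add_card_compl, Fintype.card_perm, Fintype.card_fin]
  omega

end

/-- If `m = 2^s` and `m ≥ 2`: after `2s` Thorp shuffles of the `2m = 2^(s+1)` cards the total
variation distance from uniform is still larger than `1/4`. -/
theorem tv_gt_quarter_balanced (m s : ℕ) (hms : 2 ^ s = m) (hm : 2 ≤ m) :
    1 / 4 < tvDist (convPow (thorpLaw m) (s + s)) (unifLaw m) := by
  have hfact : (0:ℝ) < ((2 * m).factorial : ℝ) := by exact_mod_cast Nat.factorial_pos _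
  have hcard : (Fintype.card (Equiv.Perm (Fin (2 * m))) : ℝ) * (1 / ((2 * m).factorial : ℝ))
      = 1 := by
    rw [Fintype.card_perm, Fintype.card_fin]
    field_simp
  have h1 := tvDist_const_ge (μ := convPow (thorpLaw m) (s + s))
    (convPow_nonneg (thorpLaw_nonneg m) (s + s)) (convPow_sum (thorpLaw_sum m) (s + s))
    (1 / ((2 * m).factorial : ℝ)) (by positivity) hcard
  have hsub : (univ.filter fun g => convPow (thorpLaw m) (s + s) g ≠ 0) ⊆
      (univ.filter fun g : Equiv.Perm (Fin (2 * m)) => evenTop m g = evenTopId m) := by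
    intro g hg
    rw [mem_filter] at hg ⊢
    exact ⟨mem_univ _, reach_evenTop m s hms g (support_reach m (s + s) g hg.2)⟩
  have h2 := Finset.card_le_card hsub
  have h3 := evenTop_class_card m hm (evenTopId m)
  have h4 : (4:ℝ) * ((univ.filter fun g => convPow (thorpLaw m) (s + s) g ≠ 0).card : ℝ)
      < 3 * ((2 * m).factorial : ℝ) := by
    have : 4 * (univ.filter fun g => convPow (thorpLaw m) (s + s) g ≠ 0).card
        < 3 * (2 * m).factorial := lt_of_le_of_lt (Nat.mul_le_mul_left 4 h2) h3
    exact_mod_cast this
  have h5 : ((univ.filter fun g => convPow (thorpLaw m) (s + s) g ≠ 0).card : ℝ)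
      * (1 / ((2 * m).factorial : ℝ)) < 3 / 4 := by
    rw [mul_one_div, div_lt_iff₀ hfact]
    linarith
  have h6 : unifLaw m = fun _ => 1 / ((2 * m).factorial : ℝ) := rfl
  rw [h6]
  linarith

end Vale.Agent.Lib.P162
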